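import Vale.Agent.P218.R2.H976.Seq

/-! # A zero-one law for off-centre density ratios, and criteria for unique tangent flows

For every `m`-dimensional integral Brakke flow of finite mass in a Euclidean space `E` (in
particular for every weak flow of problem P218, where `E = ℝ³` and `m = 2`) and every space-time
point `(x₀, t₀)` with `t₀ > 0`, write `Θ(y; r)` for Huisken's Gaussian density ratio at
`(x₀ + r y, t₀)` and scale `r`. A sequence of scales `r_k ↓ 0` is *good* if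
`log (r_k / r_{k+1}) (Θ(0; r_k) - Θ(0; r_{k+1})) → 0`; sequences with bounded quotients are good.
Then either the tangent flow at `(x₀, t₀)` is unique and `Θ(y; r)` converges as `r → 0` for every
`y`, or it is not unique and, for almost every `y`, there is a nondegenerate interval all of whose
points are limit points of `Θ(y; r_k)` along every good sequence `(r_k)`. -/

open MeasureTheory Set Filter Topology

namespace Vale.Agent.Results.P218.DensityLimits

open Vale.Agent.P218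

/-- Main theorem. -/
theorem result {E : Type*} [NormedAddCommGroup E] [InnerProductSpace ℝ E] [FiniteDimensional ℝ E]
    [MeasurableSpace E] [BorelSpace E] (m : ℕ) (μ : ℝ → Measure E)
    (hμ : IsIntegralBrakkeFlow m μ) (hfin : μ 0 univ < ⊤) (x₀ : E) (t₀ : ℝ) (ht₀ : 0 < t₀) :
    -- the zero-one law
    ((TangentFlowUnique m μ x₀ t₀ ∧ ∀ y : E, ∃ l,
        Tendsto (fun r : ℝ => densityRatio m μ (x₀ + r • y) t₀ r) (𝓝[>] 0) (𝓝 l)) ∨
      (¬ TangentFlowUnique m μ x₀ t₀ ∧ ∀ᵐ y : E, ∃ a b : ℝ, a < b ∧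
        ∀ r : ℕ → ℝ, IsGoodSeq m μ x₀ t₀ r → ∀ v ∈ Icc a b,
          MapClusterPt v atTop fun k => densityRatio m μ (x₀ + r k • y) t₀ (r k))) ∧
    -- good sequences
    (∀ r : ℕ → ℝ, IsGoodSeq m μ x₀ t₀ r →
      (∀ A : Set E, volume A ≠ 0 → (∀ y ∈ A, {v : ℝ | MapClusterPt v atTop fun k =>
          densityRatio m μ (x₀ + r k • y) t₀ (r k)}.Countable) → TangentFlowUnique m μ x₀ t₀) ∧
      (∀ κ : Measure E, WeakTendsto (fun k => rescaled m μ x₀ t₀ (1 / r k) (-1)) κ →
        TangentFlowUnique m μ x₀ t₀) ∧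
      ∀ κ ∈ tangentSlices m μ x₀ t₀, ∃ ψ : ℕ → ℕ, Tendsto ψ atTop atTop ∧
        WeakTendsto (fun n => rescaled m μ x₀ t₀ (1 / r (ψ n)) (-1)) κ) ∧
    (∀ (r : ℕ → ℝ) (q : ℝ), IsScaleSeq t₀ r → (∀ k, r k ≤ q * r (k + 1)) →
      IsGoodSeq m μ x₀ t₀ r) ∧
    -- rates
    (∀ r : ℕ → ℝ, IsScaleSeq t₀ r → (Summable fun k => √(Real.log (r k / r (k + 1)) *
        (densityRatio m μ x₀ t₀ (r k) - densityRatio m μ x₀ t₀ (r (k + 1))))) →
      TangentFlowUnique m μ x₀ t₀) ∧
    (∀ l δ C : ℝ, 0 < δ → Tendsto (fun r => densityRatio m μ x₀ t₀ r) (𝓝[>] 0) (𝓝 l) →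
      (∀ᶠ r in 𝓝[>] (0 : ℝ), densityRatio m μ x₀ t₀ r - l ≤
        C / (Real.log (1 / r) * Real.log (Real.log (1 / r)) ^ (2 + δ))) →
      TangentFlowUnique m μ x₀ t₀) := by
  obtain ⟨T, H, hB⟩ := H552.exists_BF hμ
  have h01 := zero_one hB hfin x₀ ht₀
  refine ⟨h01, fun r hr => ⟨fun A hA hc => ?_, fun κ hκ => ?_, fun κ hκ => ?_⟩,
    fun r q hr hq => good_of_bdd hB hfin x₀ ht₀ hr hq,
    fun r hr hs => unique_of_summable hB hfin x₀ ht₀ hr hs,
    fun l δ C hδ hl h => unique_of_rate hB hfin x₀ ht₀ hl hδ h⟩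
  · rcases h01 with h | ⟨-, h⟩
    · exact h.1
    · exfalso
      refine hA (measure_mono_null (fun y hy => ?_) h)
      rintro ⟨a, b, hab, hv⟩
      have h3 : (Icc a b).Countable := (hc y hy).mono fun v hv' => hv r hr v hv'
      have h4 := h3.measure_zero volume
      rw [Real.volume_Icc, ENNReal.ofReal_eq_zero] at h4
      linarith
  · exact unique_of_gaps hB hfin x₀ ht₀ hr.1 hr.2 hκ
  · exact exists_subseq_good hB hfin x₀ ht₀ hr hκ

end Vale.Agent.Results.P218.DensityLimits
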