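import Vale.Agent.P218.H59.Quiet

/-! # Quiet windows: how slowly a flow without unique tangent flow has to oscillate

For every `m`-dimensional integral Brakke flow of finite mass in a Euclidean space `E` (in
particular for every weak flow of problem P218, where `E = ℝ³` and `m = 2`) and every space-time
point `(x₀, t₀)` with `t₀ > 0`, without any hypothesis on the tangent flows. Write `M_r` for the
time `-1` slice of the flow rescaled at `(x₀, t₀)` by `1 / r`, and `Θ(r)` for the Gaussian density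
ratio at `(x₀, t₀)` and scale `r`.

1. For every `C¹` test function the squared variation between two scales `r ≤ R` is at most
   `C (1 + log (R / r)) (Θ(R) - Θ(r))`.
2. For every sequence of scales `r_k ↓ 0` all windows `[r_{k+1}, r_k]` are asymptotically quiet,
   except for a set of `k` over which `1 / (1 + log (r_k / r_{k+1}))` is summable.
3. If the rescaled flow moves by `ε` between any two consecutive scales `r_k ↓ 0`, then
   `∑ 1 / log (r_k / r_{k+1}) < ∞` and `log (1 / r_n) / n² → ∞`.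
4. The same holds for scales at which two different tangent flows are visited alternately. -/

open MeasureTheory Set Filter Topology
open scoped ENNReal

namespace Vale.Agent.Results.P218.QuietWindows

open Vale.Agent.P218

/-- Main theorem. -/
theorem result {E : Type*} [NormedAddCommGroup E] [InnerProductSpace ℝ E] [FiniteDimensional ℝ E]
    [MeasurableSpace E] [BorelSpace E] (m : ℕ) (μ : ℝ → Measure E)
    (hμ : IsIntegralBrakkeFlow m μ) (hfin : μ 0 univ < ⊤) (x₀ : E) (t₀ : ℝ) (ht₀ : 0 < t₀) :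
    -- the variation between two scales
    (∀ φ : E → ℝ, ContDiff ℝ 1 φ → HasCompactSupport φ → ∃ C : ℝ, ∀ r R : ℝ, 0 < r → r ≤ R →
      R ^ 2 ≤ t₀ →
      (∫ x, φ x ∂(rescaled m μ x₀ t₀ (1 / r) (-1)) -
        ∫ x, φ x ∂(rescaled m μ x₀ t₀ (1 / R) (-1))) ^ 2 ≤
        C * ((1 + Real.log (R / r)) * (densityRatio m μ x₀ t₀ R - densityRatio m μ x₀ t₀ r))) ∧
    (∀ r : ℕ → ℝ, IsScaleSeq t₀ r →
      -- quiet windows
      (∃ Q : Set ℕ, Summable (Qᶜ.indicator fun k => 1 / (1 + Real.log (r k / r (k + 1)))) ∧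
        ∀ s s' : ℕ → ℝ, (∀ k ∈ Q, s k ∈ Icc (r (k + 1)) (r k)) →
          (∀ k ∈ Q, s' k ∈ Icc (r (k + 1)) (r k)) →
          ∀ φ : E → ℝ, Continuous φ → HasCompactSupport φ →
            Tendsto (fun k => ∫ x, φ x ∂(rescaled m μ x₀ t₀ (1 / s k) (-1)) -
              ∫ x, φ x ∂(rescaled m μ x₀ t₀ (1 / s' k) (-1))) (atTop ⊓ 𝓟 Q) (𝓝 0)) ∧
      -- moves are sparse
      (∀ (φ : E → ℝ) (ε : ℝ), ContDiff ℝ 1 φ → HasCompactSupport φ → 0 < ε →
        (∀ᶠ k in atTop, ε ≤ |∫ x, φ x ∂(rescaled m μ x₀ t₀ (1 / r (k + 1)) (-1)) -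
          ∫ x, φ x ∂(rescaled m μ x₀ t₀ (1 / r k) (-1))|) →
        Summable (fun k => 1 / Real.log (r k / r (k + 1))) ∧
          Tendsto (fun n : ℕ => Real.log (1 / r n) / (n : ℝ) ^ 2) atTop atTop) ∧
      -- alternating tangent flows
      (∀ κ ∈ tangentSlices m μ x₀ t₀, ∀ κ' ∈ tangentSlices m μ x₀ t₀, κ ≠ κ' →
        WeakTendsto (fun i => rescaled m μ x₀ t₀ (1 / r (2 * i)) (-1)) κ →
        WeakTendsto (fun i => rescaled m μ x₀ t₀ (1 / r (2 * i + 1)) (-1)) κ' →
        Summable (fun k => 1 / Real.log (r k / r (k + 1))) ∧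
          Tendsto (fun n : ℕ => Real.log (1 / r n) / (n : ℝ) ^ 2) atTop atTop)) := by
  obtain ⟨T, H, hB⟩ := H552.exists_BF hμ
  have hE := energy_NN hB hfin x₀ ht₀
  have hc : 0 < (√(4 * Real.pi) ^ m)⁻¹ := cm_pos hB hfin m
  have hNN : ∀ s : ℝ, 0 < s →
      rescaled m μ x₀ t₀ (1 / s) (-1) = H552.NN m μ x₀ t₀ (-Real.log s) := by
    intro s hs
    unfold H552.NN
    rw [Real.exp_neg, Real.exp_log hs, one_div]
  have htau : ∀ s : ℝ, 0 < s → s ^ 2 ≤ t₀ → H552.tau0 t₀ ≤ -Real.log s := by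
    intro s hs hst
    unfold H552.tau0
    have h3 : Real.log (s ^ 2) ≤ Real.log t₀ := Real.log_le_log (pow_pos hs 2) hst
    rw [Real.log_pow] at h3
    push_cast at h3
    linarith
  refine ⟨?_, fun r hr => ⟨?_, ?_, ?_⟩⟩
  · intro φ hφ hφs
    obtain ⟨C, hC, hb⟩ := hE.bound hφ hφs
    refine ⟨C / (√(4 * Real.pi) ^ m)⁻¹, fun r R hr hrR hR => ?_⟩
    have hRpos : 0 < R := hr.trans_le hrR
    have h1 := hb (-Real.log R) (-Real.log r) (htau R hRpos hR)
      (neg_le_neg (Real.log_le_log hr hrR))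
    rw [hNN r hr, hNN R hRpos, densityRatio_center m μ x₀ t₀ hr,
      densityRatio_center m μ x₀ t₀ hRpos, Real.log_div hRpos.ne' hr.ne']
    refine h1.trans (le_of_eq ?_)
    field_simp
    ring
  · obtain ⟨Q, hQ1, hQ2⟩ := hE.quiet hr.tau_le hr.mono
    refine ⟨Q, ?_, fun s s' hs hs' φ hφ hφs => ?_⟩
    · refine hQ1.congr fun k => ?_
      by_cases hk : k ∈ Qᶜ
      · rw [indicator_of_mem hk, indicator_of_mem hk, hr.log_div]
      · rw [indicator_of_notMem hk, indicator_of_notMem hk]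
    · have hcv : ∀ u : ℕ → ℝ, (∀ k ∈ Q, u k ∈ Icc (r (k + 1)) (r k)) →
          ∀ k ∈ Q, -Real.log (u k) ∈ Icc (-Real.log (r k)) (-Real.log (r (k + 1))) := by
        intro u hu k hk
        have h1 := hu k hk
        have h2 : 0 < u k := (hr.pos (k + 1)).trans_le h1.1
        exact ⟨neg_le_neg (Real.log_le_log h2 h1.2),
          neg_le_neg (Real.log_le_log (hr.pos _) h1.1)⟩
      have h1 := hQ2 (fun k => -Real.log (s k)) (fun k => -Real.log (s' k)) (hcv s hs)
        (hcv s' hs') φ hφ hφs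
      refine h1.congr' ?_
      filter_upwards [(mem_inf_of_right (mem_principal_self Q) : Q ∈ atTop ⊓ 𝓟 Q)] with k hk
      rw [hNN _ ((hr.pos (k + 1)).trans_le (hs k hk).1),
        hNN _ ((hr.pos (k + 1)).trans_le (hs' k hk).1)]
  · intro φ ε hφ hφs hε hbig
    have h3 := hE.sparse_moves hr.tau_le hr.mono hφ hφs hε (by
      simpa only [hNN _ (hr.pos _)] using hbig)
    refine ⟨h3.1.congr fun k => by rw [hr.log_div], h3.2.congr fun n => ?_⟩
    rw [one_div, Real.log_inv]
  · intro κ hκ κ' hκ' hne h1 h2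
    rw [H552.tangentSlices_eq hB hfin x₀ ht₀] at hκ hκ'
    have h3 := hE.sparse hr.tau_le hr.mono hκ.1 hκ'.1 hne
      (by simpa only [hNN _ (hr.pos _)] using h1)
      (by simpa only [hNN _ (hr.pos _)] using h2)
    refine ⟨h3.1.congr fun k => by rw [hr.log_div], h3.2.congr fun n => ?_⟩
    rw [one_div, Real.log_inv]

end Vale.Agent.Results.P218.QuietWindows
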